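import Vale.Agent.P166.Defs
import Vale.Agent.P166.Asymp

/-!
P166: self-averaging, universality in the spectrum, and stop-loss monotonicity of the pressure of
orthogonally invariant Ising spin glasses, at every inverse temperature.
-/

open MeasureTheory Topology Filter Vale.Agent.P166

namespace Vale.Agent.Results.P166.Universality

theorem result :
    -- (1) There is a deterministic sequence `a β μ N`, depending only on `β`, `μ` and `N`, such
    -- that for every inverse temperature and every admissible sequence of spectra with limit law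
    -- `μ` the pressure differs from it by a quantity tending to zero in mean square.
    (∃ a : ℝ → Measure ℝ → ℕ → ℝ,
      ∀ (β : ℝ), 0 ≤ β → ∀ (μ : Measure ℝ), IsProbabilityMeasure μ → IsCompact μ.support →
      ∀ lam : (N : ℕ) → Fin N → ℝ, Admissible μ lam →
        Tendsto (fun N : ℕ => ∫ U, (pressure β (coupling (lam N) U) - a β μ N) ^ 2 ∂(haarO N))
          atTop (𝓝 0)) ∧
    -- (2) Comparison: if the limit laws are ordered in the increasing convex order, so are the
    -- averaged pressures asymptotically.
    (∀ (β : ℝ), 0 ≤ β → ∀ (μ μ' : Measure ℝ), IsProbabilityMeasure μ → IsProbabilityMeasure μ' →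
      IsCompact μ.support → IsCompact μ'.support →
      (∀ t : ℝ, ∫ x, max (x - t) 0 ∂μ ≤ ∫ x, max (x - t) 0 ∂μ') →
      ∀ lam lam' : (N : ℕ) → Fin N → ℝ, Admissible μ lam → Admissible μ' lam' →
      ∀ ε : ℝ, 0 < ε → ∀ᶠ N : ℕ in atTop,
        ∫ U, pressure β (coupling (lam N) U) ∂(haarO N) ≤
          ∫ U, pressure β (coupling (lam' N) U) ∂(haarO N) + ε) ∧
    -- (3) Quantitative self-averaging for every size and every spectrum.
    (∀ (N : ℕ), 0 < N → ∀ (β : ℝ), 0 ≤ β → ∀ (lam : Fin N → ℝ) (D : ℝ),
      (∀ i j, |lam i - lam j| ≤ D) →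
        ∫ U, (pressure β (coupling lam U) - ∫ V, pressure β (coupling lam V) ∂(haarO N)) ^ 2
          ∂(haarO N) ≤ 4 * Real.pi ^ 2 * β ^ 2 * D ^ 2 * (1 + Real.log N) / N) := by
  refine ⟨?_, ?_, ?_⟩
  · classical
    refine ⟨fun β μ N => if h : ∃ lam : (N : ℕ) → Fin N → ℝ, Admissible μ lam then
      meanPressure β (h.choose N) else 0, ?_⟩
    intro β hβ μ hμ hc lam hlam
    have hex : ∃ lam : (N : ℕ) → Fin N → ℝ, Admissible μ lam := ⟨lam, hlam⟩
    simp only [dif_pos hex]
    exact universality hc hlam hex.choose_spec hβ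
  · intro β hβ μ μ' hμ hμ' hc hc' hicx lam lam' hlam hlam' ε hε
    have hβ1 : 0 < β + 1 := by linarith
    have h := asymp_compare hc hc' hlam hlam' hicx hβ (ε := ε / (β + 1)) (div_pos hε hβ1)
    filter_upwards [h] with N hN
    have h2 : β * (ε / (β + 1)) / 2 ≤ ε := by
      rw [mul_div_assoc', div_div, div_le_iff₀ (by positivity)]
      nlinarith
    have h3 : meanPressure β (lam N) ≤ meanPressure β (lam' N) + ε := by linarith
    exact h3
  · intro N hN β hβ lam D hD
    exact variance_le hN hβ lam hD

end Vale.Agent.Results.P166.Universality
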